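import Vale.Agent.Lib.P074.Defs
import Vale.Agent.Lib.P074.Proofs

namespace Vale.Agent.Results.P074.A_main

open Vale.Agent.Lib.P074

/-- For every dimension `d ≥ 2`, no exponent `α > 1/3` is admissible. Hence the supremum of the
admissible exponents is at most `1/3`, and `α = 1/2` is not admissible. -/
theorem result (d : ℕ) (hd : 2 ≤ d) (α : ℝ) (hα : 1 / 3 < α) : ¬ Admissible d α :=
  not_admissible hd hα

end Vale.Agent.Results.P074.A_main
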