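import Vale.Agent.Lib.P074.Defs
import Vale.Agent.Lib.P074.Q.Final

namespace Vale.Agent.Results.P074.A_quarter

open Vale.Agent.Lib.P074

/-- In every dimension the exponent `1/4` is admissible, which improves the known lower
bound `1/6` for the supremum of the admissible exponents. -/
theorem result (d : ℕ) : Admissible d (1 / 4) :=
  admissible_quarter d

end Vale.Agent.Results.P074.A_quarter
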