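import Vale.Agent.Lib.P074.Defs
import Vale.Agent.Lib.P074.Proofs
import Vale.Agent.Lib.P074.T.Third

namespace Vale.Agent.Results.P074.A_third

open Vale.Agent.Lib.P074

/-- In every dimension `d ≥ 2` the set of admissible exponents in `(0, 1]` has a greatest element,
and it is `1/3`: the supremum `α*_d` of the admissible exponents equals `1/3` and is attained. -/
theorem result (d : ℕ) (hd : 2 ≤ d) :
    IsGreatest {α : ℝ | 0 < α ∧ α ≤ 1 ∧ Admissible d α} (1 / 3) := by
  refine ⟨⟨by norm_num, by norm_num, T.admissible_third d⟩, ?_⟩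
  rintro α ⟨_, _, hα⟩
  by_contra h
  exact not_admissible hd (not_le.mp h) hα

end Vale.Agent.Results.P074.A_third
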